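import Vale.Agent.Lib.P018.Main

open Polynomial Filter

namespace Vale.Agent.Results.P018.UpwardClosedInK

open Vale.Agent.Lib.P018

/-- The set of qualifying pairs `(d, k)` of Q2 is upward closed in `k`: if the predicted asymptotic
holds for every irreducible polynomial of degree `d` satisfying the local condition at exponent
`k ≥ 2`, then the same is true at every exponent `k' ≥ k`.  In particular Q1 in degree `d` implies
that every pair `(d, k')` qualifies.  The second part records that the constant used is the
infinite product (limit of the partial products over the primes up to `N`). -/
theorem result :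
    (∀ d k k' : ℕ, 2 ≤ k → k ≤ k' → Qualifies d k → Qualifies d k') ∧
    (∀ (f : ℤ[X]) (k : ℕ), Tendsto (cPart f k) atTop (nhds (cConst f k))) :=
  ⟨qualifies_mono, tendsto_cPart⟩

end Vale.Agent.Results.P018.UpwardClosedInK
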